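import Vale.Agent.P072.Equil
import Vale.Agent.P072.Escape

open Vale.Agent.P072 Filter Topology

/-- Weakly reversible networks: (1) the points of a positive stoichiometric class that are
equilibria for some rate vector with entries in `[ε, 1/ε]` form a compact set; (2) a positive
solution (rates possibly depending on time, with values in `[ε, 1/ε]`) cannot leave every compact
subset of the open orthant with a limiting direction in logarithmic coordinates. -/
theorem Vale.Agent.Results.P072.A000_Combined.result {d : ℕ} (N : Network d)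
    (hN : N.WeaklyReversible) {ε : ℝ} (hε : 0 < ε) :
    (∀ c : Fin d → ℝ, (∀ i, 0 < c i) →
      IsCompact {x | x ∈ N.posClass c ∧
        ∃ k : Cplx d × Cplx d → ℝ, (∀ r ∈ N.R, ε ≤ k r ∧ k r ≤ ε⁻¹) ∧ N.field k x = 0}) ∧
    (∀ (k : ℝ → Cplx d × Cplx d → ℝ) (J : Set ℝ), J.OrdConnected → J.Nonempty →
      (∀ t ∈ J, ∀ r ∈ N.R, ε ≤ k t r ∧ k t r ≤ ε⁻¹) →
      ∀ x : ℝ → Fin d → ℝ, (∀ t ∈ J, ∀ i, 0 < x t i) →
      (∀ t ∈ J, HasDerivWithinAt x (N.field (k t) (x t)) J t) →
      Tendsto (fun t : J => ‖logv (x t)‖) atTop atTop →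
      ¬ ∃ a : Fin d → ℝ, Tendsto (fun t : J => ‖logv (x t)‖⁻¹ • logv (x t)) atTop (𝓝 a)) :=
  ⟨fun c hc => isCompact_equilibria_uniform N hN c hc hε,
    fun k J hJ hJne hk x hpos hsol hesc ⟨a, ha⟩ =>
      no_directional_escape N hN hε k J hJ hJne hk x hpos hsol hesc a ha⟩
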