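import Vale.Agent.P072.Equil

open Vale.Agent.P072

/-- For every weakly reversible mass-action system, the set of positive equilibria in each
positive stoichiometric class is compact. -/
theorem Vale.Agent.Results.P072.EquilibriaCompact.result {d : ℕ} (N : Network d)
    (hN : N.WeaklyReversible) (k : Cplx d × Cplx d → ℝ) (hk : ∀ r ∈ N.R, 0 < k r)
    (c : Fin d → ℝ) (hc : ∀ i, 0 < c i) :
    IsCompact {x | x ∈ N.posClass c ∧ N.field k x = 0} :=
  isCompact_equilibria N hN k hk c hc
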