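import Vale.Agent.P072.Equil

open Vale.Agent.P072

/-- For every weakly reversible network and every `ε > 0`, the set of points of a positive
stoichiometric class that are equilibria for some rate vector with entries in `[ε, 1/ε]`
is compact. -/
theorem Vale.Agent.Results.P072.EquilibriaCompactUniform.result {d : ℕ} (N : Network d)
    (hN : N.WeaklyReversible) (c : Fin d → ℝ) (hc : ∀ i, 0 < c i) {ε : ℝ} (hε : 0 < ε) :
    IsCompact {x | x ∈ N.posClass c ∧
      ∃ k : Cplx d × Cplx d → ℝ, (∀ r ∈ N.R, ε ≤ k r ∧ k r ≤ ε⁻¹) ∧ N.field k x = 0} :=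
  isCompact_equilibria_uniform N hN c hc hε
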