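import Vale.Agent.P072.Escape

open Vale.Agent.P072 Filter Topology

/-- A positive solution of a weakly reversible mass-action system (rates possibly depending on
time, with values in `[ε, 1/ε]`) on an interval `J` cannot leave every compact subset of the open
orthant, as `t` increases to the right end of `J`, with a limiting direction in logarithmic
coordinates. -/
theorem Vale.Agent.Results.P072.NoDirectionalEscape.result {d : ℕ} (N : Network d)
    (hN : N.WeaklyReversible) {ε : ℝ} (hε : 0 < ε)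
    (k : ℝ → Cplx d × Cplx d → ℝ) (J : Set ℝ) (hJ : J.OrdConnected) (hJne : J.Nonempty)
    (hk : ∀ t ∈ J, ∀ r ∈ N.R, ε ≤ k t r ∧ k t r ≤ ε⁻¹)
    (x : ℝ → Fin d → ℝ) (hpos : ∀ t ∈ J, ∀ i, 0 < x t i)
    (hsol : ∀ t ∈ J, HasDerivWithinAt x (N.field (k t) (x t)) J t)
    (hesc : Tendsto (fun t : J => ‖logv (x t)‖) atTop atTop) :
    ¬ ∃ a : Fin d → ℝ, Tendsto (fun t : J => ‖logv (x t)‖⁻¹ • logv (x t)) atTop (𝓝 a) :=
  fun ⟨a, ha⟩ => no_directional_escape N hN hε k J hJ hJne hk x hpos hsol hesc a ha
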